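import Vale.Agent.P102.Red

open MeasureTheory Filter Topology

namespace Vale.Agent.Results.P102.AllOrders

/-- Rokhlin's multiple mixing problem: an invertible mixing probability-preserving
transformation is mixing of all orders. -/
theorem result {Ω : Type*} [MeasurableSpace Ω] (μ : Measure Ω) [IsProbabilityMeasure μ]
    (T : Ω ≃ᵐ Ω) (hT : MeasurePreserving T μ μ)
    (hmix : ∀ A B : Set Ω, MeasurableSet A → MeasurableSet B →
      Tendsto (fun n : ℤ => μ.real (A ∩ (T.toEquiv ^ n) ⁻¹' B))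
        (comap (fun n : ℤ => |n|) atTop) (𝓝 (μ.real A * μ.real B)))
    (k : ℕ) (A : Fin k → Set Ω) (hA : ∀ i, MeasurableSet (A i)) (ε : ℝ) (hε : 0 < ε) :
    ∃ G : ℕ, ∀ t : Fin k → ℤ, StrictMono t →
      (∀ i j : Fin k, (j : ℕ) = i + 1 → (G : ℤ) ≤ t j - t i) →
      |μ.real (⋂ i, (T.toEquiv ^ t i) ⁻¹' A i) - ∏ i, μ.real (A i)| < ε :=
  Vale.Agent.P102.multiple_mixing μ T hT hmix k A hA ε hε

end Vale.Agent.Results.P102.AllOrders
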